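import Mathlib

/-!
P064: abstract domination lemma.  A finite group acts on the finite subsets of a ground set
(monotone, cardinality preserving).  If every subset `A` of `Y` has few automorphisms
(`aut A ≤ 2 |G| q^|A|`), then for every `S` the number of group elements carrying `S` into `Y`
is at most `(8 k q)^|S| |G|`, where `|Y| < 2^k`.
-/

set_option linter.unusedSectionVars false

namespace Vale.Agent.Lib.P064H3

open Finset

variable {G X : Type*} [Group G] [Fintype G] [DecidableEq G] [DecidableEq X] [Fintype X]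

/-- A monotone cardinality preserving action of `G` on finite subsets of `X`. -/
structure IsAct (act : G → Finset X → Finset X) : Prop where
  one : ∀ A, act 1 A = A
  mul : ∀ g h A, act (g * h) A = act g (act h A)
  mono : ∀ g A B, A ⊆ B → act g A ⊆ act g B
  card : ∀ g A, (act g A).card = A.card

/-- The group elements carrying `A` into `Y`. -/
def emb (act : G → Finset X → Finset X) (A Y : Finset X) : Finset G :=
  univ.filter (fun g => act g A ⊆ Y)

lemma mem_emb {act : G → Finset X → Finset X} {A Y : Finset X} {g : G} :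
    g ∈ emb act A Y ↔ act g A ⊆ Y := by
  simp [emb]

variable {act : G → Finset X → Finset X}

lemma IsAct.inv_act (h : IsAct act) (g : G) (A : Finset X) : act g⁻¹ (act g A) = A := by
  rw [← h.mul, inv_mul_cancel, h.one]

lemma IsAct.act_inv (h : IsAct act) (g : G) (A : Finset X) : act g (act g⁻¹ A) = A := by
  rw [← h.mul, mul_inv_cancel, h.one]

lemma IsAct.subset_act_iff (h : IsAct act) (g : G) (A B : Finset X) :
    A ⊆ act g B ↔ act g⁻¹ A ⊆ B := by
  constructor
  · intro hAB
    have := h.mono g⁻¹ _ _ hAB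
    rwa [h.inv_act] at this
  · intro hAB
    have := h.mono g _ _ hAB
    rwa [h.act_inv] at this

/-- Transporting the source does not change the number of embeddings. -/
lemma card_emb_act (h : IsAct act) (g : G) (A Y : Finset X) :
    (emb act (act g A) Y).card = (emb act A Y).card := by
  apply Finset.card_nbij' (fun x => x * g) (fun x => x * g⁻¹)
  · intro x hx
    have hx' := mem_emb.mp (Finset.mem_coe.mp hx)
    apply Finset.mem_coe.mpr
    rw [mem_emb, h.mul]
    exact hx'
  · intro x hx
    have hx' := mem_emb.mp (Finset.mem_coe.mp hx)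
    apply Finset.mem_coe.mpr
    rw [mem_emb, ← h.mul, mul_assoc, inv_mul_cancel, mul_one]
    exact hx'
  · intro x _; simp
  · intro x _; simp

/-- The number of `ρ` with `A ⊆ ρ Z` is the number of embeddings of `A` into `Z`. -/
lemma card_filter_subset_act (h : IsAct act) (A Z : Finset X) :
    (univ.filter (fun r : G => A ⊆ act r Z)).card = (emb act A Z).card := by
  apply Finset.card_nbij' (fun x => x⁻¹) (fun x => x⁻¹)
  · intro x hx
    have hx' : A ⊆ act x Z := by simpa using hx
    apply Finset.mem_coe.mpr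
    rw [mem_emb]
    exact (h.subset_act_iff x A Z).mp hx'
  · intro x hx
    have hx' := mem_emb.mp (Finset.mem_coe.mp hx)
    have : A ⊆ act x⁻¹ Z := by
      rw [h.subset_act_iff, inv_inv]
      exact hx'
    simpa using this
  · intro x _; simp
  · intro x _; simp

/-- Orbit counting: embeddings of `Z` into `Y` are at most `2^|Y|` times the automorphisms. -/
lemma card_emb_le (h : IsAct act) (Z Y : Finset X) :
    (emb act Z Y).card ≤ 2 ^ Y.card * (emb act Z Z).card := by
  have hmaps : ∀ g ∈ emb act Z Y, act g Z ∈ Y.powerset := by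
    intro g hg
    exact Finset.mem_powerset.mpr (mem_emb.mp hg)
  rw [Finset.card_eq_sum_card_fiberwise hmaps]
  have hfib : ∀ Z' ∈ Y.powerset,
      ((emb act Z Y).filter (fun g => act g Z = Z')).card ≤ (emb act Z Z).card := by
    intro Z' _
    rcases ((emb act Z Y).filter (fun g => act g Z = Z')).eq_empty_or_nonempty with he | ⟨g0, hg0⟩
    · rw [he]; simp
    · have hg0' : act g0 Z = Z' := (Finset.mem_filter.mp hg0).2
      apply Finset.card_le_card_of_injOn (fun g => g0⁻¹ * g)
      · intro g hg
        have hg' : act g Z = Z' := (Finset.mem_filter.mp (Finset.mem_coe.mp hg)).2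
        apply Finset.mem_coe.mpr
        rw [mem_emb, h.mul, hg', ← hg0', h.inv_act]
      · intro a _ b _ hab
        exact mul_left_cancel hab
  calc ∑ Z' ∈ Y.powerset, ((emb act Z Y).filter (fun g => act g Z = Z')).card
      ≤ ∑ _Z' ∈ Y.powerset, (emb act Z Z).card := Finset.sum_le_sum hfib
    _ = 2 ^ Y.card * (emb act Z Z).card := by
        rw [Finset.sum_const, Finset.card_powerset, smul_eq_mul]


lemma emb_empty (h : IsAct act) (Y : Finset X) : emb act ∅ Y = univ := by
  ext g
  rw [mem_emb]
  have h0 : act g ∅ = ∅ := by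
    rw [← Finset.card_eq_zero, h.card]; rfl
  simp [h0]

/-- The key counting inequality: if `Z` maximises `|emb C Y| / κ^|C|`, then the embeddings of
`S` into `Y` are controlled by the embeddings of the subsets of `S` into `Z`. -/
lemma key_count (h : IsAct act) (κ : ℝ) (hκ : 0 < κ) (Z Y : Finset X)
    (hmax : ∀ C : Finset X, ((emb act C Y).card : ℝ) * κ ^ Z.card
      ≤ ((emb act Z Y).card : ℝ) * κ ^ C.card) (S : Finset X) :
    ((emb act Z Y).card : ℝ) * ((emb act S Y).card : ℝ)
      ≤ ∑ A ∈ S.powerset, ((emb act A Z).card : ℝ) * κ ^ (S.card - A.card)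
          * ((emb act Z Y).card : ℝ) := by
  set P : Finset (G × G) := (emb act S Y) ×ˢ (emb act Z Y) with hP
  set f : G × G → Finset X := fun x => S ∩ act (x.1⁻¹ * x.2) Z with hf
  have hmaps : ∀ x ∈ P, f x ∈ S.powerset := by
    intro x _
    exact Finset.mem_powerset.mpr Finset.inter_subset_left
  have hcard : (P.card : ℝ) = ((emb act Z Y).card : ℝ) * ((emb act S Y).card : ℝ) := by
    rw [hP, Finset.card_product]; push_cast; ring
  rw [← hcard, Finset.card_eq_sum_card_fiberwise hmaps]
  push_cast
  apply Finset.sum_le_sum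
  intro A hA
  have hAS : A ⊆ S := Finset.mem_powerset.mp hA
  set R : Finset G := univ.filter (fun r : G => A ⊆ act r Z ∧ Disjoint (act r Z) (S \ A)) with hR
  have hinj : (P.filter (fun x => f x = A)).card
      ≤ (R.sigma (fun r => emb act (act r Z ∪ (S \ A)) Y)).card := by
    apply Finset.card_le_card_of_injOn (fun x => (⟨x.1⁻¹ * x.2, x.1⟩ : (_ : G) × G))
    · intro x hx
      have hx' := Finset.mem_filter.mp (Finset.mem_coe.mp hx)
      have hxP := Finset.mem_product.mp hx'.1
      have hx1 : act x.1 S ⊆ Y := mem_emb.mp hxP.1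
      have hx2 : act x.2 Z ⊆ Y := mem_emb.mp hxP.2
      have hfx : S ∩ act (x.1⁻¹ * x.2) Z = A := hx'.2
      apply Finset.mem_coe.mpr
      rw [Finset.mem_sigma]
      refine ⟨?_, ?_⟩
      · rw [hR, Finset.mem_filter]
        refine ⟨Finset.mem_univ _, ?_, ?_⟩
        · rw [← hfx]; exact Finset.inter_subset_right
        · rw [Finset.disjoint_left]
          intro a ha1 ha2
          rw [Finset.mem_sdiff] at ha2
          apply ha2.2
          rw [← hfx]
          exact Finset.mem_inter.mpr ⟨ha2.1, ha1⟩
      · rw [mem_emb]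
        have h1 : act (x.1⁻¹ * x.2) Z ⊆ act x.1⁻¹ Y := by
          rw [h.mul]; exact h.mono _ _ _ hx2
        have h2 : S \ A ⊆ act x.1⁻¹ Y := by
          refine Finset.sdiff_subset.trans ?_
          rw [h.subset_act_iff, inv_inv]
          exact hx1
        have h3 := Finset.union_subset h1 h2
        rw [h.subset_act_iff, inv_inv] at h3
        exact h3
    · intro a _ b _ hab
      simp only [Sigma.mk.injEq, heq_eq_eq] at hab
      obtain ⟨h1, h2⟩ := hab
      rw [h2] at h1
      exact Prod.ext h2 (mul_left_cancel h1)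
  have hterm : ∀ r ∈ R, ((emb act (act r Z ∪ (S \ A)) Y).card : ℝ)
      ≤ κ ^ (S.card - A.card) * ((emb act Z Y).card : ℝ) := by
    intro r hr
    have hr' := (Finset.mem_filter.mp hr).2
    have hc : (act r Z ∪ (S \ A)).card = Z.card + (S.card - A.card) := by
      rw [Finset.card_union_of_disjoint hr'.2, h.card, Finset.card_sdiff_of_subset hAS]
    have := hmax (act r Z ∪ (S \ A))
    rw [hc, pow_add] at this
    have hpos : 0 < κ ^ Z.card := pow_pos hκ _
    have h2 : ((emb act (act r Z ∪ (S \ A)) Y).card : ℝ) * κ ^ Z.card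
        ≤ (κ ^ (S.card - A.card) * ((emb act Z Y).card : ℝ)) * κ ^ Z.card := by
      calc _ ≤ ((emb act Z Y).card : ℝ) * (κ ^ Z.card * κ ^ (S.card - A.card)) := this
        _ = _ := by ring
    exact le_of_mul_le_mul_right h2 hpos
  have hRle : (R.card : ℝ) ≤ ((emb act A Z).card : ℝ) := by
    rw [← card_filter_subset_act h A Z]
    have : R ⊆ univ.filter (fun r : G => A ⊆ act r Z) := by
      intro r hr
      rw [Finset.mem_filter] at hr ⊢
      exact ⟨hr.1, hr.2.1⟩
    exact_mod_cast Finset.card_le_card this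
  calc ((P.filter (fun x => f x = A)).card : ℝ)
      ≤ ((R.sigma (fun r => emb act (act r Z ∪ (S \ A)) Y)).card : ℝ) := by exact_mod_cast hinj
    _ = ∑ r ∈ R, ((emb act (act r Z ∪ (S \ A)) Y).card : ℝ) := by
        rw [Finset.card_sigma]; push_cast; rfl
    _ ≤ ∑ _r ∈ R, κ ^ (S.card - A.card) * ((emb act Z Y).card : ℝ) := Finset.sum_le_sum hterm
    _ = (R.card : ℝ) * (κ ^ (S.card - A.card) * ((emb act Z Y).card : ℝ)) := by
        rw [Finset.sum_const, nsmul_eq_mul]
    _ ≤ ((emb act A Z).card : ℝ) * (κ ^ (S.card - A.card) * ((emb act Z Y).card : ℝ)) := by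
        apply mul_le_mul_of_nonneg_right hRle
        positivity
    _ = _ := by ring


/-- Existence of a maximal violator inside `Y`. -/
lemma exists_max (h : IsAct act) (κ : ℝ) (hκ : 0 < κ) (Y : Finset X) :
    ∃ Z : Finset X, Z ⊆ Y ∧ ∀ C : Finset X, ((emb act C Y).card : ℝ) * κ ^ Z.card
      ≤ ((emb act Z Y).card : ℝ) * κ ^ C.card := by
  obtain ⟨Z0, _, hZ0⟩ := Finset.exists_max_image (univ : Finset (Finset X))
    (fun C => ((emb act C Y).card : ℝ) / κ ^ C.card) ⟨∅, Finset.mem_univ _⟩
  have hG : (0 : ℝ) < (Fintype.card G : ℝ) := by exact_mod_cast Fintype.card_pos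
  have h0 := hZ0 ∅ (Finset.mem_univ _)
  simp only [emb_empty h, Finset.card_univ, Finset.card_empty, pow_zero, div_one] at h0
  have hpos : (0 : ℝ) < ((emb act Z0 Y).card : ℝ) := by
    by_contra hcon
    have hz : ((emb act Z0 Y).card : ℝ) = 0 :=
      le_antisymm (not_lt.mp hcon) (Nat.cast_nonneg _)
    rw [hz, zero_div] at h0
    linarith
  have hne : (emb act Z0 Y).Nonempty := by
    rw [← Finset.card_pos]; exact_mod_cast hpos
  obtain ⟨g, hg⟩ := hne
  refine ⟨act g Z0, mem_emb.mp hg, ?_⟩
  intro C
  have hC := hZ0 C (Finset.mem_univ _)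
  rw [card_emb_act h, h.card]
  rw [div_le_div_iff₀ (pow_pos hκ _) (pow_pos hκ _)] at hC
  exact hC

/-- Abstract domination with a logarithmic loss. -/
theorem dom (h : IsAct act) (q : ℝ) (hq : 0 < q) :
    ∀ (k : ℕ) (Y : Finset X), Y.card < 2 ^ k →
      (∀ A : Finset X, A ⊆ Y →
        ((emb act A A).card : ℝ) ≤ 2 * (Fintype.card G : ℝ) * q ^ A.card) →
      ∀ S : Finset X, ((emb act S Y).card : ℝ)
        ≤ ((k : ℝ) * (8 * q)) ^ S.card * (Fintype.card G : ℝ) := by
  have hG : (0 : ℝ) < (Fintype.card G : ℝ) := by exact_mod_cast Fintype.card_pos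
  intro k
  induction k with
  | zero =>
    intro Y hY _ S
    have hY0 : Y = ∅ := by
      rw [← Finset.card_eq_zero]
      simpa using hY
    subst hY0
    rcases S.eq_empty_or_nonempty with hS | hS
    · subst hS
      rw [emb_empty h]
      simp
    · have : emb act S ∅ = ∅ := by
        rw [Finset.eq_empty_iff_forall_notMem]
        intro g hg
        have hg' := mem_emb.mp hg
        have hc := Finset.card_le_card hg'
        rw [h.card] at hc
        have hp := Finset.card_pos.mpr hS
        rw [Finset.card_empty] at hc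
        omega
      rw [this]
      simp only [Finset.card_empty, Nat.cast_zero]
      positivity
  | succ k ih =>
    intro Y hY hyp S
    set κ : ℝ := 8 * q with hκdef
    have hκ : 0 < κ := by positivity
    obtain ⟨Z, hZY, hmax⟩ := exists_max h κ hκ Y
    -- the maximiser is small
    have h0 := hmax ∅
    rw [emb_empty h, Finset.card_univ, Finset.card_empty, pow_zero, mul_one] at h0
    have h1 : ((emb act Z Y).card : ℝ) ≤ 2 ^ Y.card * ((emb act Z Z).card : ℝ) := by
      exact_mod_cast card_emb_le h Z Y
    have h2 := hyp Z hZY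
    have hZpos : (0 : ℝ) < ((emb act Z Y).card : ℝ) := by
      have : 0 < (Fintype.card G : ℝ) * κ ^ Z.card := by positivity
      linarith
    have h3 : (8 : ℝ) ^ Z.card ≤ 2 ^ (Y.card + 1) := by
      have hq' : 0 < q ^ Z.card := pow_pos hq _
      have h4 : (Fintype.card G : ℝ) * κ ^ Z.card
          ≤ 2 ^ Y.card * (2 * (Fintype.card G : ℝ) * q ^ Z.card) :=
        h0.trans (h1.trans (mul_le_mul_of_nonneg_left h2 (by positivity)))
      rw [hκdef, mul_pow] at h4
      have h5 : (8 : ℝ) ^ Z.card * ((Fintype.card G : ℝ) * q ^ Z.card)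
          ≤ 2 ^ (Y.card + 1) * ((Fintype.card G : ℝ) * q ^ Z.card) := by
        calc _ = (Fintype.card G : ℝ) * (8 ^ Z.card * q ^ Z.card) := by ring
          _ ≤ _ := h4
          _ = _ := by rw [pow_succ]; ring
      exact le_of_mul_le_mul_right h5 (by positivity)
    have h6 : 3 * Z.card ≤ Y.card + 1 := by
      have h7 : (2 : ℕ) ^ (3 * Z.card) ≤ 2 ^ (Y.card + 1) := by
        have : ((2 : ℕ) ^ (3 * Z.card) : ℝ) ≤ ((2 : ℕ) ^ (Y.card + 1) : ℝ) := by
          rw [pow_mul]
          norm_num
          exact h3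
        exact_mod_cast this
      exact (Nat.pow_le_pow_iff_right (by norm_num)).mp h7
    have hZk : Z.card < 2 ^ k := by
      rw [pow_succ] at hY
      have : 0 < 2 ^ k := by positivity
      omega
    have IH := ih Z hZk (fun A hA => hyp A (hA.trans hZY))
    have hkey := key_count h κ hκ Z Y hmax S
    have hsum : ∑ A ∈ S.powerset, ((emb act A Z).card : ℝ) * κ ^ (S.card - A.card)
          * ((emb act Z Y).card : ℝ)
        ≤ ((emb act Z Y).card : ℝ) *
          ((((k + 1 : ℕ) : ℝ) * κ) ^ S.card * (Fintype.card G : ℝ)) := by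
      have hb := Finset.sum_pow_mul_eq_add_pow ((k : ℝ) * κ) κ S
      have e1 : (((k + 1 : ℕ) : ℝ) * κ) = (k : ℝ) * κ + κ := by push_cast; ring
      rw [e1, ← hb, Finset.sum_mul, Finset.mul_sum]
      apply Finset.sum_le_sum
      intro A _
      have hA := IH A
      calc ((emb act A Z).card : ℝ) * κ ^ (S.card - A.card) * ((emb act Z Y).card : ℝ)
          ≤ (((k : ℝ) * κ) ^ A.card * (Fintype.card G : ℝ)) * κ ^ (S.card - A.card)
              * ((emb act Z Y).card : ℝ) := by
            apply mul_le_mul_of_nonneg_right _ hZpos.le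
            apply mul_le_mul_of_nonneg_right hA
            positivity
        _ = _ := by ring
    exact le_of_mul_le_mul_left (hkey.trans hsum) hZpos

end Vale.Agent.Lib.P064H3
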