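import Mathlib
import Vale.Agent.Lib.P064.Defs
import Vale.Agent.Lib.P064.DefsT
import Vale.Agent.Lib.P064.DefsC
import Vale.Agent.Lib.P064.Count
import Vale.Agent.Lib.P064.Expect
import Vale.Agent.Lib.P064.FOrbit
import Vale.Agent.Lib.P064.FPc
import Vale.Agent.Lib.P064_helper23.Spread
import Vale.Agent.Lib.P064_helper3.Dom

/-!
P064: domination with a logarithmic loss for ALL graphs `H`, and the resulting bound
`p_c ≤ C p_E log^2 n`.
-/

set_option linter.unusedSectionVars false

namespace Vale.Agent.Lib.P064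

open Finset Vale.Agent.Lib.P064S Vale.Agent.Lib.P064H3

variable {n : ℕ}

/-- The action of permutations on edge sets. -/
noncomputable def actW (σ : Equiv.Perm (Fin n)) (W : Finset (EX n)) : Finset (EX n) :=
  toW (imG σ (ofW W))

lemma imG_one (F : SimpleGraph (Fin n)) : imG 1 F = F := by
  ext u v
  rw [imG_adj]
  rfl

lemma imG_mono (σ : Equiv.Perm (Fin n)) {F F' : SimpleGraph (Fin n)} (h : F ≤ F') :
    imG σ F ≤ imG σ F' := by
  intro u v huv
  rw [imG_adj] at huv ⊢
  exact h huv

lemma card_toW (G : SimpleGraph (Fin n)) : (toW G).card = numEdges G := by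
  conv_rhs => rw [← ofW_toW G]
  exact (numEdges_ofW _).symm

lemma numEdges_imG (σ : Equiv.Perm (Fin n)) (F : SimpleGraph (Fin n)) :
    numEdges (imG σ F) = numEdges F :=
  numEdges_iso (⟨σ.symm, Iff.rfl⟩ : imG σ F ≃g F)

lemma ofW_mono {A B : Finset (EX n)} (h : A ⊆ B) : ofW A ≤ ofW B := by
  rw [← toW_subset_iff, toW_ofW, toW_ofW]
  exact h

lemma isAct_actW : IsAct (actW (n := n)) where
  one := by
    intro A
    rw [actW, imG_one, toW_ofW]
  mul := by
    intro g h A
    rw [actW, actW, actW, ofW_toW, imG_mul]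
  mono := by
    intro g A B hAB
    rw [actW, actW, toW_subset_iff]
    exact imG_mono g (ofW_mono hAB)
  card := by
    intro g A
    rw [actW, card_toW, numEdges_imG, numEdges_ofW]

lemma emb_actW (A : Finset (EX n)) (H : SimpleGraph (Fin n)) :
    emb actW A (toW H) = embSet (ofW A) H := by
  ext σ
  rw [mem_emb, mem_embSet, actW, toW_subset_iff, imG_le_iff]

/-- The automorphism bound coming from the expectation hypothesis. -/
lemma aut_le (q : ℝ) (hq0 : 0 < q) (F : SimpleGraph (Fin n)) (hF : 1 / 2 ≤ expCopies q F) :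
    ((embSet F F).card : ℝ) ≤ 2 * (n.factorial : ℝ) * q ^ numEdges F := by
  rw [expCopies_eq] at hF
  have h2 := card_embSet F ⊤
  rw [embSet_top, Finset.card_univ, Fintype.card_perm, Fintype.card_fin] at h2
  have h2R : (n.factorial : ℝ) = (copyCount ⊤ F : ℝ) * ((embSet F F).card : ℝ) := by
    exact_mod_cast h2
  rw [h2R]
  have ha : (0 : ℝ) ≤ ((embSet F F).card : ℝ) := Nat.cast_nonneg _
  nlinarith [mul_le_mul_of_nonneg_right hF ha]

/-- Domination (spread form) for all graphs `H`, with a logarithmic loss. -/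
theorem general_spread (q : ℝ) (hq0 : 0 < q) (H : SimpleGraph (Fin n))
    (hs : ∀ F : SimpleGraph (Fin n), F ≤ H → 1 / 2 ≤ expCopies q F)
    (k : ℕ) (hk : numEdges H < 2 ^ k) (F : SimpleGraph (Fin n)) :
    ((embSet F H).card : ℝ) ≤ ((k : ℝ) * (8 * q)) ^ numEdges F * (n.factorial : ℝ) := by
  classical
  have hY : (toW H).card < 2 ^ k := by rw [card_toW]; exact hk
  have hyp : ∀ A : Finset (EX n), A ⊆ toW H →
      ((emb actW A A).card : ℝ)
        ≤ 2 * (Fintype.card (Equiv.Perm (Fin n)) : ℝ) * q ^ A.card := by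
    intro A hA
    have hle : ofW A ≤ H := by
      rw [← toW_subset_iff, toW_ofW]; exact hA
    have h1 := aut_le q hq0 (ofW A) (hs _ hle)
    have h2 : emb actW A A = embSet (ofW A) (ofW A) := by
      conv_lhs => rw [← toW_ofW A]
      rw [emb_actW, toW_ofW]
    rw [h2, Fintype.card_perm, Fintype.card_fin]
    rw [numEdges_ofW] at h1
    exact h1
  have hmain := dom (isAct_actW (n := n)) q hq0 k (toW H) hY hyp (toW F)
  rw [emb_actW, ofW_toW, card_toW, Fintype.card_perm, Fintype.card_fin] at hmain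
  exact hmain


/-- Containment of an arbitrary graph at density `64 (8 k q) (m+1)`. -/
theorem general_probContains (q : ℝ) (hq0 : 0 < q) (H : SimpleGraph (Fin n))
    (hs : ∀ F : SimpleGraph (Fin n), F ≤ H → 1 / 2 ≤ expCopies q F)
    (m : ℕ) (hm : numEdges H ≤ 2 ^ m) (p : ℝ) (hp1 : p ≤ 1)
    (hp : 64 * (((m + 1 : ℕ) : ℝ) * (8 * q)) * (m + 1) ≤ p) :
    1 / 2 ≤ probContains p H := by
  classical
  have hκ : 0 < ((m + 1 : ℕ) : ℝ) * (8 * q) := by positivity
  have hk : numEdges H < 2 ^ (m + 1) := by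
    rw [pow_succ]
    have : 0 < 2 ^ m := by positivity
    omega
  have hp0 : 0 ≤ p := by
    refine le_trans ?_ hp
    positivity
  have hS : ∀ σ : Equiv.Perm (Fin n), (toW (imG σ H)).card ≤ 2 ^ m := by
    intro σ
    rw [card_toW, numEdges_imG]
    exact hm
  have hspread : ∀ T : Finset (EX n),
      ((univ.filter (fun σ : Equiv.Perm (Fin n) => T ⊆ toW (imG σ H))).card : ℝ)
        ≤ (((m + 1 : ℕ) : ℝ) * (8 * q)) ^ T.card * (Fintype.card (Equiv.Perm (Fin n)) : ℝ) := by
    intro T
    have h1 := general_spread q hq0 H hs (m + 1) hk (ofW T)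
    rw [numEdges_ofW] at h1
    rw [Fintype.card_perm, Fintype.card_fin]
    have h2 := card_spread H T
    calc ((univ.filter (fun σ : Equiv.Perm (Fin n) => T ⊆ toW (imG σ H))).card : ℝ)
        = ((embSet (ofW T) H).card : ℝ) := by
          exact_mod_cast h2
      _ ≤ _ := h1
  have hmain := spread_lemma (fun σ : Equiv.Perm (Fin n) => toW (imG σ H)) m hS
    (((m + 1 : ℕ) : ℝ) * (8 * q)) hκ hspread p hp1 hp
  refine hmain.trans ?_
  rw [probContains, sum_graph_eq p (fun G => if 0 < copyCount G H then (1 : ℝ) else 0)]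
  apply Finset.sum_le_sum
  intro W _
  apply mul_le_mul_of_nonneg_left _ (bw_nonneg hp0 hp1 W)
  by_cases h : ∃ σ : Equiv.Perm (Fin n), toW (imG σ H) ⊆ W
  · obtain ⟨σ, hσ⟩ := h
    have h3 : imG σ H ≤ ofW W := by
      rw [← toW_subset_iff, toW_ofW]
      exact hσ
    rw [if_pos ⟨σ, hσ⟩, if_pos (copyCount_pos_of_imG_le σ H _ h3)]
  · rw [if_neg h]
    split_ifs <;> norm_num

/-- `p_c ≤ 32768 p_E log^2 n` for every graph `H`. -/
theorem pc_le_pE_log_sq (hn : 2 ≤ n) (H : SimpleGraph (Fin n)) :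
    pc H ≤ 32768 * pE H * (Real.log n) ^ 2 := by
  set SE := {p : ℝ | 0 ≤ p ∧ p ≤ 1 ∧ ∀ F : SimpleGraph (Fin n), F ≤ H → 1 / 2 ≤ expCopies p F}
    with hSE
  set SC := {p : ℝ | 0 ≤ p ∧ p ≤ 1 ∧ 1 / 2 ≤ probContains p H} with hSC
  have hbdd : BddBelow SC := ⟨0, fun p hp => hp.1⟩
  have hlog : 0 < Real.log n := by
    apply Real.log_pos
    exact_mod_cast (by omega : 1 < n)
  have hne : SE.Nonempty := by
    refine ⟨1, zero_le_one, le_refl _, ?_⟩
    intro F _
    rw [expCopies_eq, one_pow, mul_one]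
    have h1 : (1 : ℝ) ≤ (copyCount ⊤ F : ℝ) := by exact_mod_cast copyCount_top_pos F
    linarith
  obtain ⟨m, hm1, hm2⟩ := exists_log_bound hn
  have hmH : numEdges H ≤ 2 ^ m := (numEdges_le_sq H).trans hm1
  have hone : (1 : ℝ) ∈ SC := by
    refine ⟨zero_le_one, le_refl _, ?_⟩
    have := pow_le_probContains (zero_le_one) (le_refl (1 : ℝ)) H
    rw [one_pow] at this
    linarith
  have key : ∀ q ∈ SE, pc H ≤ 32768 * (Real.log n) ^ 2 * q := by
    intro q hq
    obtain ⟨hq0, _, hqs⟩ := hq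
    rcases hq0.eq_or_lt with h0 | hpos
    · subst h0
      rw [mul_zero]
      apply csInf_le hbdd
      refine ⟨le_refl _, zero_le_one, ?_⟩
      have h1 := hqs H (le_refl _)
      rw [expCopies_eq] at h1
      rcases Nat.eq_zero_or_pos (numEdges H) with he | he
      · have := pow_le_probContains (le_refl (0 : ℝ)) zero_le_one H
        rw [he, pow_zero] at this
        linarith
      · rw [zero_pow he.ne', mul_zero] at h1
        norm_num at h1
    · have hm0 : (0 : ℝ) ≤ (m : ℝ) + 1 := by positivity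
      have hbound : 64 * (((m + 1 : ℕ) : ℝ) * (8 * q)) * (m + 1)
          ≤ 32768 * (Real.log n) ^ 2 * q := by
        have hsq : ((m : ℝ) + 1) * ((m : ℝ) + 1) ≤ (8 * Real.log n) * (8 * Real.log n) :=
          mul_le_mul hm2 hm2 hm0 (by positivity)
        push_cast
        calc 64 * (((m : ℝ) + 1) * (8 * q)) * ((m : ℝ) + 1)
            = 512 * q * (((m : ℝ) + 1) * ((m : ℝ) + 1)) := by ring
          _ ≤ 512 * q * ((8 * Real.log n) * (8 * Real.log n)) :=
              mul_le_mul_of_nonneg_left hsq (by positivity)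
          _ = _ := by ring
      rcases le_or_gt (64 * (((m + 1 : ℕ) : ℝ) * (8 * q)) * (m + 1)) 1 with hP | hP
      · refine le_trans ?_ hbound
        apply csInf_le hbdd
        refine ⟨by positivity, hP, ?_⟩
        exact general_probContains q hpos H hqs m hmH _ hP (le_refl _)
      · refine le_trans ?_ (hP.le.trans hbound)
        exact csInf_le hbdd hone
  set C : ℝ := 32768 * (Real.log n) ^ 2 with hC
  have hC0 : 0 < C := by positivity
  have h2 : pc H / C ≤ pE H := by
    apply le_csInf hne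
    intro q hq
    rw [div_le_iff₀ hC0, mul_comm]
    exact key q hq
  rw [div_le_iff₀ hC0] at h2
  calc pc H ≤ pE H * C := h2
    _ = 32768 * pE H * (Real.log n) ^ 2 := by rw [hC]; ring


/-- Domination for all graphs, copy count form, with the loss `8 k`, `e(H) < 2^k`. -/
theorem general_domination_k (q : ℝ) (hq0 : 0 < q) (H : SimpleGraph (Fin n))
    (hs : ∀ F : SimpleGraph (Fin n), F ≤ H → 1 / 2 ≤ expCopies q F)
    (k : ℕ) (hk : numEdges H < 2 ^ k) (F : SimpleGraph (Fin n)) :
    (copyCount H F : ℝ) ≤ (copyCount ⊤ F : ℝ) * ((k : ℝ) * (8 * q)) ^ numEdges F := by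
  have h1 := general_spread q hq0 H hs k hk F
  have hid := copyCount_mul_factorial F H
  have hidR : (copyCount H F : ℝ) * (n.factorial : ℝ)
      = (copyCount ⊤ F : ℝ) * ((embSet F H).card : ℝ) := by exact_mod_cast hid
  have hpos : (0 : ℝ) ≤ (copyCount ⊤ F : ℝ) := Nat.cast_nonneg _
  have hfac : (0 : ℝ) < (n.factorial : ℝ) := by exact_mod_cast Nat.factorial_pos n
  have h2 : (copyCount H F : ℝ) * (n.factorial : ℝ)
      ≤ ((copyCount ⊤ F : ℝ) * ((k : ℝ) * (8 * q)) ^ numEdges F) * (n.factorial : ℝ) := by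
    rw [hidR]
    calc (copyCount ⊤ F : ℝ) * ((embSet F H).card : ℝ)
        ≤ (copyCount ⊤ F : ℝ) * (((k : ℝ) * (8 * q)) ^ numEdges F * (n.factorial : ℝ)) :=
          mul_le_mul_of_nonneg_left h1 hpos
      _ = _ := by ring
  exact le_of_mul_le_mul_right h2 hfac

/-- Domination for all graphs with `L = 64 log n`. -/
theorem general_domination (hn : 2 ≤ n) (q : ℝ) (hq0 : 0 < q) (H : SimpleGraph (Fin n))
    (hs : ∀ F : SimpleGraph (Fin n), F ≤ H → 1 / 2 ≤ expCopies q F)
    (F : SimpleGraph (Fin n)) :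
    (copyCount H F : ℝ) ≤ expCopies (min 1 (64 * Real.log n * q)) F := by
  obtain ⟨m, hm1, hm2⟩ := exists_log_bound hn
  have hmH : numEdges H ≤ 2 ^ m := (numEdges_le_sq H).trans hm1
  have hk : numEdges H < 2 ^ (m + 1) := by
    rw [pow_succ]
    have : 0 < 2 ^ m := by positivity
    omega
  have hpos : (0 : ℝ) ≤ (copyCount ⊤ F : ℝ) := Nat.cast_nonneg _
  rw [expCopies_eq]
  rcases le_or_gt 1 (64 * Real.log n * q) with h1 | h1
  · rw [min_eq_left h1, one_pow, mul_one]
    exact_mod_cast copyCount_le_top H F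
  · rw [min_eq_right h1.le]
    refine (general_domination_k q hq0 H hs (m + 1) hk F).trans ?_
    apply mul_le_mul_of_nonneg_left _ hpos
    apply pow_le_pow_left₀ (by positivity)
    push_cast
    calc ((m : ℝ) + 1) * (8 * q) ≤ (8 * Real.log n) * (8 * q) :=
          mul_le_mul_of_nonneg_right hm2 (by positivity)
      _ = _ := by ring

/-- `p~_E ≤ 64 p_E log n` for every graph. -/
theorem pTilde_le_pE_log (hn : 2 ≤ n) (H : SimpleGraph (Fin n)) :
    pTilde H ≤ 64 * pE H * Real.log n := by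
  have hlog : 0 < Real.log n := by
    apply Real.log_pos
    exact_mod_cast (by omega : 1 < n)
  set L : ℝ := 64 * Real.log n with hL
  have hL0 : 0 < L := by positivity
  set SE := {p : ℝ | 0 ≤ p ∧ p ≤ 1 ∧ ∀ F : SimpleGraph (Fin n), F ≤ H → 1 / 2 ≤ expCopies p F}
    with hSE
  set ST := {p : ℝ | 0 ≤ p ∧ p ≤ 1 ∧
    ∀ F : SimpleGraph (Fin n), F ≤ H → (copyCount H F : ℝ) / 2 ≤ expCopies p F} with hST
  have hbdd : BddBelow ST := ⟨0, fun p hp => hp.1⟩
  have hne : SE.Nonempty := by
    refine ⟨1, zero_le_one, le_refl _, ?_⟩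
    intro F _
    rw [expCopies_eq, one_pow, mul_one]
    have h1 : (1 : ℝ) ≤ (copyCount ⊤ F : ℝ) := by exact_mod_cast copyCount_top_pos F
    linarith
  have key : ∀ q ∈ SE, pTilde H ≤ L * q := by
    intro q hq
    obtain ⟨hq0, _, hqs⟩ := hq
    rcases hq0.eq_or_lt with h0 | hpos
    · subst h0
      rw [mul_zero]
      apply csInf_le hbdd
      refine ⟨le_refl _, zero_le_one, ?_⟩
      intro F hF
      have h1 := hqs F hF
      rw [expCopies_eq] at h1 ⊢
      rcases Nat.eq_zero_or_pos (numEdges F) with he | he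
      · rw [he, pow_zero, mul_one]
        have h2 : (copyCount H F : ℝ) ≤ (copyCount ⊤ F : ℝ) := by
          exact_mod_cast copyCount_le_top H F
        have h3 : (0 : ℝ) ≤ (copyCount H F : ℝ) := Nat.cast_nonneg _
        linarith
      · rw [zero_pow he.ne', mul_zero] at h1
        norm_num at h1
    · have hmem : min 1 (L * q) ∈ ST := by
        refine ⟨le_min zero_le_one (by positivity), min_le_left _ _, ?_⟩
        intro F _
        have h1 := general_domination hn q hpos H hqs F
        have h3 : (0 : ℝ) ≤ (copyCount H F : ℝ) := Nat.cast_nonneg _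
        linarith
      exact (csInf_le hbdd hmem).trans (min_le_right _ _)
  have h2 : pTilde H / L ≤ pE H := by
    apply le_csInf hne
    intro q hq
    rw [div_le_iff₀ hL0, mul_comm]
    exact key q hq
  rw [div_le_iff₀ hL0] at h2
  calc pTilde H ≤ pE H * L := h2
    _ = 64 * pE H * Real.log n := by rw [hL]; ring

end Vale.Agent.Lib.P064
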