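import Mathlib
import Vale.Agent.Lib.P064_helper3.Graph

/-!
P064: the bound `p_c ≤ C p_E log^2 (4 e(H))` in terms of the number of edges of `H`.
-/

set_option linter.unusedSectionVars false

namespace Vale.Agent.Lib.P064

open Finset Vale.Agent.Lib.P064S Vale.Agent.Lib.P064H3

variable {n : ℕ}

lemma exists_log_bound_edges (e : ℕ) (he : 1 ≤ e) :
    ∃ m : ℕ, e ≤ 2 ^ m ∧ ((m : ℝ) + 1) * Real.log 2 ≤ Real.log (4 * e) := by
  set k := Nat.clog 2 e with hk
  refine ⟨k, Nat.le_pow_clog (by norm_num) e, ?_⟩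
  have hl2 : 0 < Real.log 2 := Real.log_pos (by norm_num)
  have heR : (1 : ℝ) ≤ (e : ℝ) := by exact_mod_cast he
  rcases Nat.lt_or_ge 1 e with h1 | h1
  · have hkpos : 0 < k := Nat.clog_pos (by norm_num) h1
    have h2 : 2 ^ (k - 1) < e := by
      have := Nat.pow_pred_clog_lt_self (b := 2) (by norm_num) (x := e) (by omega)
      simpa [Nat.pred_eq_sub_one] using this
    have h3 : (2 : ℝ) ^ (k + 1) ≤ 4 * (e : ℝ) := by
      have h4 : ((2 : ℝ) ^ (k - 1)) ≤ (e : ℝ) := by exact_mod_cast h2.le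
      have h5 : (2 : ℝ) ^ (k + 1) = 4 * 2 ^ (k - 1) := by
        have : k + 1 = (k - 1) + 2 := by omega
        rw [this, pow_add]; norm_num; ring
      rw [h5]; linarith
    have h6 := Real.log_le_log (by positivity) h3
    rw [Real.log_pow] at h6
    push_cast at h6
    exact h6
  · have he1 : e = 1 := by omega
    have hk0 : k = 0 := by rw [hk, he1]; simp
    rw [hk0, he1]
    have : Real.log (4 * ((1 : ℕ) : ℝ)) = 2 * Real.log 2 := by
      have h4 : (4 * ((1 : ℕ) : ℝ)) = 2 ^ 2 := by norm_num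
      rw [h4, Real.log_pow]; norm_num
    rw [this]
    push_cast
    linarith

/-- `p_c ≤ 1100 p_E log^2 (4 e(H))` for every graph `H`. -/
theorem pc_le_pE_log_sq_edges (H : SimpleGraph (Fin n)) :
    pc H ≤ 1100 * pE H * (Real.log (4 * (numEdges H : ℝ))) ^ 2 := by
  set SE := {p : ℝ | 0 ≤ p ∧ p ≤ 1 ∧ ∀ F : SimpleGraph (Fin n), F ≤ H → 1 / 2 ≤ expCopies p F}
    with hSE
  set SC := {p : ℝ | 0 ≤ p ∧ p ≤ 1 ∧ 1 / 2 ≤ probContains p H} with hSC
  have hbdd : BddBelow SC := ⟨0, fun p hp => hp.1⟩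
  have hne : SE.Nonempty := by
    refine ⟨1, zero_le_one, le_refl _, ?_⟩
    intro F _
    rw [expCopies_eq, one_pow, mul_one]
    have h1 : (1 : ℝ) ≤ (copyCount ⊤ F : ℝ) := by exact_mod_cast copyCount_top_pos F
    linarith
  have hpE0 : 0 ≤ pE H := by
    apply le_csInf hne
    intro q hq
    exact hq.1
  rcases Nat.eq_zero_or_pos (numEdges H) with he0 | hepos
  · -- the empty graph
    have h0 : pc H ≤ 0 := by
      apply csInf_le hbdd
      refine ⟨le_refl _, zero_le_one, ?_⟩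
      have := pow_le_probContains (le_refl (0 : ℝ)) zero_le_one H
      rw [he0, pow_zero] at this
      linarith
    refine h0.trans ?_
    positivity
  obtain ⟨m, hmH, hm2⟩ := exists_log_bound_edges (numEdges H) hepos
  set ℓ : ℝ := Real.log (4 * (numEdges H : ℝ)) with hℓ
  have hl2 : (0.6931471803 : ℝ) < Real.log 2 := Real.log_two_gt_d9
  have hm0 : (0 : ℝ) ≤ (m : ℝ) + 1 := by positivity
  have hℓpos : 0 < ℓ := by
    have : 0 < ((m : ℝ) + 1) * Real.log 2 := by positivity
    linarith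
  have hm3 : (m : ℝ) + 1 ≤ 1.4427 * ℓ := by nlinarith
  have hone : (1 : ℝ) ∈ SC := by
    refine ⟨zero_le_one, le_refl _, ?_⟩
    have := pow_le_probContains (zero_le_one) (le_refl (1 : ℝ)) H
    rw [one_pow] at this
    linarith
  have key : ∀ q ∈ SE, pc H ≤ 1100 * ℓ ^ 2 * q := by
    intro q hq
    obtain ⟨hq0, _, hqs⟩ := hq
    rcases hq0.eq_or_lt with h0 | hpos
    · subst h0
      have h1 := hqs H (le_refl _)
      rw [expCopies_eq, zero_pow hepos.ne', mul_zero] at h1
      norm_num at h1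
    · have hbound : 64 * (((m + 1 : ℕ) : ℝ) * (8 * q)) * (m + 1) ≤ 1100 * ℓ ^ 2 * q := by
        have hsq : ((m : ℝ) + 1) * ((m : ℝ) + 1) ≤ (1.4427 * ℓ) * (1.4427 * ℓ) :=
          mul_le_mul hm3 hm3 hm0 (by positivity)
        push_cast
        calc 64 * (((m : ℝ) + 1) * (8 * q)) * ((m : ℝ) + 1)
            = 512 * q * (((m : ℝ) + 1) * ((m : ℝ) + 1)) := by ring
          _ ≤ 512 * q * ((1.4427 * ℓ) * (1.4427 * ℓ)) :=
              mul_le_mul_of_nonneg_left hsq (by positivity)
          _ ≤ 1100 * ℓ ^ 2 * q := by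
              have : 0 ≤ q * ℓ ^ 2 := by positivity
              nlinarith
      rcases le_or_gt (64 * (((m + 1 : ℕ) : ℝ) * (8 * q)) * (m + 1)) 1 with hP | hP
      · refine le_trans ?_ hbound
        apply csInf_le hbdd
        refine ⟨by positivity, hP, ?_⟩
        exact general_probContains q hpos H hqs m hmH _ hP (le_refl _)
      · refine le_trans ?_ (hP.le.trans hbound)
        exact csInf_le hbdd hone
  set C : ℝ := 1100 * ℓ ^ 2 with hC
  have hC0 : 0 < C := by positivity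
  have h2 : pc H / C ≤ pE H := by
    apply le_csInf hne
    intro q hq
    rw [div_le_iff₀ hC0, mul_comm]
    exact key q hq
  rw [div_le_iff₀ hC0] at h2
  calc pc H ≤ pE H * C := h2
    _ = 1100 * pE H * ℓ ^ 2 := by rw [hC]; ring

end Vale.Agent.Lib.P064
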